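import Mathlib

/-!
# P170: from the window bound and the interpolation inequality to the limiting threshold
-/

open Real Finset Filter Topology

namespace P170.Limit

/-- binomial weight -/
noncomputable def bw (t i : ℕ) (p : ℝ) : ℝ := (t.choose i : ℝ) * p ^ i * (1 - p) ^ (t - i)

theorem bw_nonneg {t i : ℕ} {p : ℝ} (h0 : 0 ≤ p) (h1 : p ≤ 1) : 0 ≤ bw t i p := by
  unfold bw
  have : 0 ≤ 1 - p := by linarith
  positivity

theorem bw_sum (t : ℕ) (p : ℝ) : ∑ i ∈ range (t + 1), bw t i p = 1 := by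
  have h := add_pow p (1 - p) t
  rw [add_sub_cancel, one_pow] at h
  rw [h]
  refine sum_congr rfl fun i _ => ?_
  unfold bw; ring

theorem bw_var (t : ℕ) (p : ℝ) :
    ∑ i ∈ range (t + 1), ((t : ℝ) * p - i) ^ 2 * bw t i p = t * p * (1 - p) := by
  have h := congrArg (Polynomial.eval p) (bernsteinPolynomial.variance ℝ t)
  simp only [Polynomial.eval_finsetSum, Polynomial.eval_mul, Polynomial.eval_pow,
    Polynomial.eval_sub, Polynomial.eval_X, Polynomial.eval_natCast,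
    Polynomial.eval_one, nsmul_eq_mul, bernsteinPolynomial] at h
  rw [← h]
  refine sum_congr rfl fun i _ => ?_
  unfold bw
  ring

/-- Hypotheses on the satisfiability probabilities. -/
structure Sys (P : ℕ → ℕ → ℝ) : Prop where
  nonneg : ∀ n t, 0 ≤ P n t
  le_one : ∀ n t, P n t ≤ 1
  anti : ∀ n, Antitone (P n)
  zero : ∀ n, P n 0 = 1
  window : ∀ B : ℝ, 0 < B → ∃ C : ℝ, 0 < C ∧ ∀ n a b : ℕ, 1 ≤ n → a ≤ b → (b : ℝ) ≤ B * n →
    ((b : ℝ) - a) ^ 2 * P n b * (1 - P n a) ≤ C * (n : ℝ) ^ (5 / 3 : ℝ)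
  interp : ∀ n₁ n₂ t : ℕ, 1 ≤ n₁ → 1 ≤ n₂ →
    ∑ i ∈ range (t + 1), bw t i ((n₁ : ℝ) / ((n₁ : ℝ) + n₂)) * (P n₁ i * P n₂ (t - i))
      ≤ P (n₁ + n₂) t
  first : ∃ c : ℝ, 0 < c ∧ Tendsto (fun n : ℕ => P n ⌊c * n⌋₊) atTop (𝓝 0)
  pos : ∃ c : ℝ, 0 < c ∧ ∀ᶠ n : ℕ in atTop, 1 / 2 ≤ P n ⌊c * n⌋₊

variable {P : ℕ → ℕ → ℝ}

/-- `n ^ (11/12)` -/
noncomputable def q (n : ℕ) : ℝ := (n : ℝ) ^ (11 / 12 : ℝ)

theorem q_mono {m n : ℕ} (h : m ≤ n) : q m ≤ q n := by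
  unfold q
  exact rpow_le_rpow (by positivity) (by exact_mod_cast h) (by norm_num)

theorem one_le_q {n : ℕ} (h : 1 ≤ n) : 1 ≤ q n := by
  unfold q
  exact one_le_rpow (by exact_mod_cast h) (by norm_num)

theorem q_sq (n : ℕ) : q n ^ 2 = (n : ℝ) ^ (11 / 6 : ℝ) := by
  unfold q
  rw [← rpow_natCast, ← rpow_mul (by positivity)]
  norm_num

theorem tendsto_neg {e : ℝ} (he : 0 < e) :
    Tendsto (fun n : ℕ => (n : ℝ) ^ (-e)) atTop (𝓝 0) :=
  (tendsto_rpow_neg_atTop he).comp tendsto_natCast_atTop_atTop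

/-- below the median the probability is close to one -/
theorem Sys.boost (hP : Sys P) {B : ℝ} (hB : 0 < B) : ∀ᶠ n : ℕ in atTop, ∀ a b : ℕ,
    (b : ℝ) ≤ B * n → 1 / 2 ≤ P n b → (a : ℝ) + q n / 2 ≤ b → 7 / 8 ≤ P n a := by
  obtain ⟨C, hC, hW⟩ := hP.window B hB
  have ht : Tendsto (fun n : ℕ => 8 * C * (n : ℝ) ^ (-(1 / 6 : ℝ))) atTop (𝓝 (8 * C * 0)) :=
    (tendsto_neg (by norm_num : (0 : ℝ) < 1 / 6)).const_mul _
  rw [mul_zero] at ht
  filter_upwards [ht.eventually (ge_mem_nhds (by norm_num : (0 : ℝ) < 1 / 8)),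
    eventually_ge_atTop 1] with n hn hn1 a b hb hPb hab
  have hq1 := one_le_q hn1
  have hab' : a ≤ b := by
    have : (a : ℝ) ≤ b := by linarith
    exact_mod_cast this
  have h := hW n a b hn1 hab' hb
  have h1 : 0 ≤ 1 - P n a := by linarith [hP.le_one n a]
  have hn0 : (0 : ℝ) < n := by exact_mod_cast hn1
  have h2 : q n ^ 2 / 4 ≤ ((b : ℝ) - a) ^ 2 := by nlinarith
  have h3 : q n ^ 2 / 4 * (1 / 2) * (1 - P n a) ≤ C * (n : ℝ) ^ (5 / 3 : ℝ) := by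
    refine le_trans ?_ h
    refine mul_le_mul_of_nonneg_right ?_ h1
    exact mul_le_mul h2 hPb (by norm_num) (by positivity)
  rw [q_sq] at h3
  have h4 : (n : ℝ) ^ (5 / 3 : ℝ) = (n : ℝ) ^ (11 / 6 : ℝ) * (n : ℝ) ^ (-(1 / 6 : ℝ)) := by
    rw [← rpow_add hn0]; norm_num
  rw [h4] at h3
  have h5 : 0 < (n : ℝ) ^ (11 / 6 : ℝ) := rpow_pos_of_pos hn0 _
  have h6 : (1 - P n a) ≤ 8 * C * (n : ℝ) ^ (-(1 / 6 : ℝ)) := by
    have h7 : (n : ℝ) ^ (11 / 6 : ℝ) * ((1 - P n a) / 8)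
        ≤ (n : ℝ) ^ (11 / 6 : ℝ) * (C * (n : ℝ) ^ (-(1 / 6 : ℝ))) := by
      calc (n : ℝ) ^ (11 / 6 : ℝ) * ((1 - P n a) / 8)
          = (n : ℝ) ^ (11 / 6 : ℝ) / 4 * (1 / 2) * (1 - P n a) := by ring
        _ ≤ _ := h3
        _ = _ := by ring
    have := le_of_mul_le_mul_left h7 h5
    linarith
  linarith

/-- combination of two blocks -/
theorem Sys.combine (hP : Sys P) {B : ℝ} (hB : 0 < B) : ∀ᶠ m : ℕ in atTop, ∀ n₁ n₂ : ℕ, m ≤ n₁ →
    n₁ ≤ n₂ → n₂ ≤ 2 * n₁ → ∀ β : ℝ, β ≤ B → (∀ t : ℕ, (t : ℝ) ≤ β * n₁ → 1 / 2 ≤ P n₁ t) →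
    (∀ t : ℕ, (t : ℝ) ≤ β * n₂ → 1 / 2 ≤ P n₂ t) →
    ∀ t : ℕ, (t : ℝ) ≤ β * (n₁ + n₂ : ℕ) - 8 * q (n₁ + n₂) → 1 / 2 ≤ P (n₁ + n₂) t := by
  obtain ⟨M, hM⟩ := eventually_atTop.1 (hP.boost hB)
  have ht : Tendsto (fun n : ℕ => B * (n : ℝ) ^ (-(5 / 6 : ℝ))) atTop (𝓝 (B * 0)) :=
    (tendsto_neg (by norm_num : (0 : ℝ) < 5 / 6)).const_mul _
  rw [mul_zero] at ht
  obtain ⟨M', hM'⟩ := eventually_atTop.1
    (ht.eventually (ge_mem_nhds (by norm_num : (0 : ℝ) < 1 / 8)))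
  filter_upwards [eventually_ge_atTop M, eventually_ge_atTop M', eventually_ge_atTop 1]
    with m hmM hmM' hm1 n₁ n₂ hn₁ h12 h21 β hβB hb1 hb2 t hT
  set N := n₁ + n₂ with hN
  have hn₁1 : 1 ≤ n₁ := le_trans hm1 hn₁
  have hn₂1 : 1 ≤ n₂ := le_trans hn₁1 h12
  have hN1 : 1 ≤ N := by omega
  have hNr : (0 : ℝ) < N := by exact_mod_cast hN1
  have hn₁r : (0 : ℝ) < n₁ := by exact_mod_cast hn₁1
  have hn₂r : (0 : ℝ) < n₂ := by exact_mod_cast hn₂1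
  have hNs : (N : ℝ) = n₁ + n₂ := by rw [hN]; push_cast; ring
  set p : ℝ := (n₁ : ℝ) / ((n₁ : ℝ) + n₂) with hp
  have hpN : p * N = n₁ := by rw [hp, hNs]; field_simp
  have h12r : (n₁ : ℝ) ≤ n₂ := by exact_mod_cast h12
  have h21r : (n₂ : ℝ) ≤ 2 * n₁ := by exact_mod_cast h21
  have hp3 : 1 / 3 ≤ p := by
    rw [hp, le_div_iff₀ (by positivity)]; linarith
  have hp2 : p ≤ 1 / 2 := by
    rw [hp, div_le_iff₀ (by positivity)]; linarith
  have hqN := one_le_q hN1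
  have ht0 : (0 : ℝ) ≤ t := by positivity
  have hβ0 : 0 ≤ β := by
    by_contra hneg
    push Not at hneg
    nlinarith
  -- good indices
  have hgood : ∀ i ∈ range (t + 1), |(t : ℝ) * p - i| < q N →
      49 / 64 ≤ P n₁ i * P n₂ (t - i) := by
    intro i hi habs
    have hit : i ≤ t := by simpa [Nat.lt_succ_iff] using hi
    rw [abs_lt] at habs
    have e1 : (t : ℝ) * p ≤ β * n₁ - 8 * q N * p := by
      have := mul_le_mul_of_nonneg_right hT (by linarith : (0 : ℝ) ≤ p)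
      calc (t : ℝ) * p ≤ (β * (N : ℝ) - 8 * q N) * p := this
        _ = β * (p * N) - 8 * q N * p := by ring
        _ = _ := by rw [hpN]
    have e2 : (t : ℝ) * (1 - p) ≤ β * n₂ - 8 * q N * (1 - p) := by
      have := mul_le_mul_of_nonneg_right hT (by linarith : (0 : ℝ) ≤ 1 - p)
      calc (t : ℝ) * (1 - p) ≤ (β * (N : ℝ) - 8 * q N) * (1 - p) := this
        _ = β * (N - p * N) - 8 * q N * (1 - p) := by ring
        _ = _ := by rw [hpN, hNs]; ring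
    have q1 : q n₁ ≤ q N := q_mono (by omega)
    have q2 : q n₂ ≤ q N := q_mono (by omega)
    have a1 : 7 / 8 ≤ P n₁ i := by
      have hfl : β * n₁ < (⌊β * n₁⌋₊ : ℝ) + 1 := Nat.lt_floor_add_one _
      have hfl2 : (⌊β * n₁⌋₊ : ℝ) ≤ β * n₁ := Nat.floor_le (by positivity)
      refine hM n₁ (by omega) i ⌊β * n₁⌋₊ ?_ (hb1 _ hfl2) ?_
      · exact hfl2.trans (mul_le_mul_of_nonneg_right hβB hn₁r.le)
      · nlinarith [mul_nonneg (by linarith : (0 : ℝ) ≤ q N) (by linarith : (0 : ℝ) ≤ p - 1 / 3)]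
    have a2 : 7 / 8 ≤ P n₂ (t - i) := by
      have hfl : β * n₂ < (⌊β * n₂⌋₊ : ℝ) + 1 := Nat.lt_floor_add_one _
      have hfl2 : (⌊β * n₂⌋₊ : ℝ) ≤ β * n₂ := Nat.floor_le (by positivity)
      refine hM n₂ (by omega) (t - i) ⌊β * n₂⌋₊ ?_ (hb2 _ hfl2) ?_
      · exact hfl2.trans (mul_le_mul_of_nonneg_right hβB hn₂r.le)
      · rw [Nat.cast_sub hit]
        nlinarith [mul_nonneg (by linarith : (0 : ℝ) ≤ q N) (by linarith : (0 : ℝ) ≤ 1 / 2 - p)]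
    nlinarith
  -- bad mass
  have hbad : ∑ i ∈ (range (t + 1)).filter (fun i : ℕ => ¬ |(t : ℝ) * p - i| < q N), bw t i p ≤ 1 / 8 := by
    have hq2 : 0 < q N ^ 2 := by positivity
    have s1 : q N ^ 2 * ∑ i ∈ (range (t + 1)).filter (fun i : ℕ => ¬ |(t : ℝ) * p - i| < q N), bw t i p
        ≤ t * p * (1 - p) := by
      rw [← bw_var t p, mul_sum]
      refine (sum_le_sum fun i hi => ?_).trans
        (sum_le_sum_of_subset_of_nonneg (filter_subset _ _) fun i _ _ =>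
          mul_nonneg (sq_nonneg _) (bw_nonneg (by linarith) (by linarith)))
      refine mul_le_mul_of_nonneg_right ?_ (bw_nonneg (by linarith) (by linarith))
      have := (mem_filter.1 hi).2
      rw [not_lt] at this
      rw [← sq_abs ((t : ℝ) * p - i)]
      exact pow_le_pow_left₀ (by positivity) this 2
    have s2 : (t : ℝ) * p * (1 - p) ≤ B * N := by
      have : (t : ℝ) ≤ B * N := by nlinarith
      have h4 : p * (1 - p) ≤ 1 := by nlinarith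
      have h5 : 0 ≤ p * (1 - p) := by nlinarith
      nlinarith
    have s3 : (N : ℝ) = q N ^ 2 * (N : ℝ) ^ (-(5 / 6 : ℝ)) := by
      rw [q_sq, ← rpow_add hNr]; norm_num
    have s4 : q N ^ 2 * ∑ i ∈ (range (t + 1)).filter (fun i : ℕ => ¬ |(t : ℝ) * p - i| < q N), bw t i p
        ≤ q N ^ 2 * (B * (N : ℝ) ^ (-(5 / 6 : ℝ))) := by
      refine (s1.trans s2).trans (le_of_eq ?_)
      calc B * (N : ℝ) = B * (q N ^ 2 * (N : ℝ) ^ (-(5 / 6 : ℝ))) := by rw [← s3]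
        _ = _ := by ring
    have s5 := le_of_mul_le_mul_left s4 hq2
    exact s5.trans (hM' N (by omega))
  have hsum := bw_sum t p
  rw [← sum_filter_add_sum_filter_not (range (t + 1)) (fun i : ℕ => |(t : ℝ) * p - i| < q N)] at hsum
  have hI := hP.interp n₁ n₂ t hn₁1 hn₂1
  rw [← hp, ← hN] at hI
  have hlow : 49 / 64 * ∑ i ∈ (range (t + 1)).filter (fun i : ℕ => |(t : ℝ) * p - i| < q N), bw t i p
      ≤ ∑ i ∈ range (t + 1), bw t i p * (P n₁ i * P n₂ (t - i)) := by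
    rw [mul_sum]
    refine (sum_le_sum fun i hi => ?_).trans
      (sum_le_sum_of_subset_of_nonneg (filter_subset _ _) fun i _ _ =>
        mul_nonneg (bw_nonneg (by linarith) (by linarith))
          (mul_nonneg (hP.nonneg _ _) (hP.nonneg _ _)))
    have h1 := hgood i (mem_filter.1 hi).1 (mem_filter.1 hi).2
    have h2 : 0 ≤ bw t i p := bw_nonneg (by linarith) (by linarith)
    nlinarith
  linarith

theorem ratio_bound {m m₂ : ℕ} (h0 : 1 ≤ m₂) (h : 3 * m₂ ≤ 2 * m) :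
    (31 / 30 : ℝ) * (m : ℝ) ^ (-(1 / 12 : ℝ)) ≤ (m₂ : ℝ) ^ (-(1 / 12 : ℝ)) := by
  have hm2 : (0 : ℝ) < m₂ := by exact_mod_cast h0
  have hm : (0 : ℝ) < m := by
    have : 0 < m := by omega
    exact_mod_cast this
  have hr : (3 : ℝ) * m₂ ≤ 2 * m := by exact_mod_cast h
  have e1 : (31 / 30 : ℝ) ≤ (3 / 2 : ℝ) ^ (1 / 12 : ℝ) := by
    have : (31 / 30 : ℝ) = ((31 / 30 : ℝ) ^ (12 : ℕ)) ^ (1 / 12 : ℝ) := by
      rw [← rpow_natCast, ← rpow_mul (by norm_num)]; norm_num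
    rw [this]
    exact rpow_le_rpow (by norm_num) (by norm_num) (by norm_num)
  have e2 : (3 / 2 : ℝ) ^ (1 / 12 : ℝ) = (2 / 3 : ℝ) ^ (-(1 / 12 : ℝ)) := by
    rw [rpow_neg (by norm_num), ← inv_rpow (by norm_num)]; norm_num
  have e3 : (2 / 3 : ℝ) ^ (-(1 / 12 : ℝ)) * (m : ℝ) ^ (-(1 / 12 : ℝ))
      = (2 / 3 * m : ℝ) ^ (-(1 / 12 : ℝ)) := by
    rw [← mul_rpow (by norm_num) hm.le]
  calc (31 / 30 : ℝ) * (m : ℝ) ^ (-(1 / 12 : ℝ))
      ≤ (2 / 3 : ℝ) ^ (-(1 / 12 : ℝ)) * (m : ℝ) ^ (-(1 / 12 : ℝ)) := by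
        rw [← e2]
        exact mul_le_mul_of_nonneg_right e1 (rpow_nonneg hm.le _)
    _ = (2 / 3 * m : ℝ) ^ (-(1 / 12 : ℝ)) := e3
    _ ≤ (m₂ : ℝ) ^ (-(1 / 12 : ℝ)) := by
        refine rpow_le_rpow_of_nonpos hm2 (by linarith) (by norm_num)

/-- all multiples of `n₀` -/
theorem Sys.dyadic (hP : Sys P) {B : ℝ} (hB : 0 < B) : ∀ᶠ n₀ : ℕ in atTop, ∀ β : ℝ, β ≤ B →
    (∀ t : ℕ, (t : ℝ) ≤ β * n₀ → 1 / 2 ≤ P n₀ t) → ∀ m : ℕ, 1 ≤ m → ∀ t : ℕ,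
    (t : ℝ) ≤ (β - 240 * (n₀ : ℝ) ^ (-(1 / 12 : ℝ)) * (1 - (m : ℝ) ^ (-(1 / 12 : ℝ)))) *
      (m * n₀ : ℕ) → 1 / 2 ≤ P (m * n₀) t := by
  obtain ⟨M, hM⟩ := eventually_atTop.1 (hP.combine hB)
  filter_upwards [eventually_ge_atTop M, eventually_ge_atTop 1] with n₀ hn hn1 β hβ hb
  have hn0r : (0 : ℝ) < n₀ := by exact_mod_cast hn1
  have hc0 : 0 ≤ (n₀ : ℝ) ^ (-(1 / 12 : ℝ)) := rpow_nonneg hn0r.le _
  intro m
  induction m using Nat.strong_induction_on with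
  | _ m ih =>
    intro hm t ht
    rcases Nat.lt_or_ge 1 m with h2 | h2
    swap
    · have : m = 1 := by omega
      subst this
      rw [one_mul]
      refine hb t (ht.trans (le_of_eq ?_))
      simp
    · set m₁ := m / 2 with hm₁
      set m₂ := m - m₁ with hm₂
      have hm1' : 1 ≤ m₁ := by omega
      have hm2' : 1 ≤ m₂ := by omega
      have hsum : m₁ + m₂ = m := by omega
      have hle : m₁ ≤ m₂ := by omega
      have hle2 : m₂ ≤ 2 * m₁ := by omega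
      have hlt1 : m₁ < m := by omega
      have hlt2 : m₂ < m := by omega
      have h3 : 3 * m₂ ≤ 2 * m := by omega
      set β' := β - 240 * (n₀ : ℝ) ^ (-(1 / 12 : ℝ)) * (1 - (m₂ : ℝ) ^ (-(1 / 12 : ℝ))) with hβ'
      have hpow1 : (m₂ : ℝ) ^ (-(1 / 12 : ℝ)) ≤ 1 :=
        rpow_le_one_of_one_le_of_nonpos (by exact_mod_cast hm2') (by norm_num)
      have hβ'B : β' ≤ B := by
        have : 0 ≤ 240 * (n₀ : ℝ) ^ (-(1 / 12 : ℝ)) * (1 - (m₂ : ℝ) ^ (-(1 / 12 : ℝ))) := by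
          have : 0 ≤ 1 - (m₂ : ℝ) ^ (-(1 / 12 : ℝ)) := by linarith
          positivity
        linarith
      have hmono : (m₂ : ℝ) ^ (-(1 / 12 : ℝ)) ≤ (m₁ : ℝ) ^ (-(1 / 12 : ℝ)) :=
        rpow_le_rpow_of_nonpos (by exact_mod_cast hm1') (by exact_mod_cast hle) (by norm_num)
      have hNeq : m * n₀ = m₁ * n₀ + m₂ * n₀ := by rw [← add_mul, hsum]
      rw [hNeq]
      refine hM n₀ hn (m₁ * n₀) (m₂ * n₀) (Nat.le_mul_of_pos_left _ (by omega))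
        (Nat.mul_le_mul_right _ hle) (by nlinarith) β' hβ'B ?_ ?_ t ?_
      · intro s hs
        refine ih m₁ hlt1 hm1' s (hs.trans ?_)
        refine mul_le_mul_of_nonneg_right ?_ (by positivity)
        rw [hβ']
        nlinarith [mul_nonneg hc0 (sub_nonneg.2 hmono)]
      · intro s hs
        exact ih m₂ hlt2 hm2' s hs
      · rw [← hNeq]
        refine ht.trans ?_
        have hmr : (0 : ℝ) < m := by exact_mod_cast hm
        have hNr : (0 : ℝ) < ((m * n₀ : ℕ) : ℝ) := by push_cast; positivity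
        have hq : q (m * n₀) = ((m : ℝ) ^ (-(1 / 12 : ℝ)) * (n₀ : ℝ) ^ (-(1 / 12 : ℝ))) *
            ((m * n₀ : ℕ) : ℝ) := by
          unfold q
          rw [← mul_rpow hmr.le hn0r.le, ← Nat.cast_mul]
          nth_rewrite 3 [← rpow_one ((m * n₀ : ℕ) : ℝ)]
          rw [← rpow_add hNr]
          norm_num
        rw [hq]
        have hrb := ratio_bound hm2' h3
        have hfin : (β - 240 * (n₀ : ℝ) ^ (-(1 / 12 : ℝ)) * (1 - (m : ℝ) ^ (-(1 / 12 : ℝ))))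
            ≤ β' - 8 * ((m : ℝ) ^ (-(1 / 12 : ℝ)) * (n₀ : ℝ) ^ (-(1 / 12 : ℝ))) := by
          rw [hβ']
          nlinarith [mul_nonneg hc0 (sub_nonneg.2 hrb)]
        calc _ ≤ (β' - 8 * ((m : ℝ) ^ (-(1 / 12 : ℝ)) * (n₀ : ℝ) ^ (-(1 / 12 : ℝ)))) *
              ((m * n₀ : ℕ) : ℝ) := mul_le_mul_of_nonneg_right hfin hNr.le
          _ = _ := by ring

theorem exp_le_one_sub {x : ℝ} (h0 : 0 ≤ x) (h1 : x ≤ 1 / 2) : exp (-(2 * x)) ≤ 1 - x := by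
  have h2 : 0 < 1 - x := by linarith
  have h3 : 1 / (1 - x) ≤ exp (2 * x) := by
    have h4 := Real.add_one_le_exp (2 * x)
    refine le_trans ?_ h4
    rw [div_le_iff₀ h2]
    nlinarith
  rw [exp_neg, inv_le_comm₀ (exp_pos _) h2, ← one_div]
  exact h3

/-- one good large size gives a lower bound for all sizes -/
theorem Sys.allN (hP : Sys P) {B : ℝ} (hB : 0 < B) : ∀ ε : ℝ, 0 < ε → ∀ᶠ n₀ : ℕ in atTop,
    ∀ β : ℝ, β ≤ B → (∀ t : ℕ, (t : ℝ) ≤ β * n₀ → 1 / 2 ≤ P n₀ t) →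
    ∃ δ : ℝ, 0 < δ ∧ ∀ᶠ N : ℕ in atTop, ∀ t : ℕ, (t : ℝ) ≤ (β - ε) * N → δ ≤ P N t := by
  intro ε hε
  have ht : Tendsto (fun n : ℕ => 240 * (n : ℝ) ^ (-(1 / 12 : ℝ))) atTop (𝓝 (240 * 0)) :=
    (tendsto_neg (by norm_num : (0 : ℝ) < 1 / 12)).const_mul _
  rw [mul_zero] at ht
  filter_upwards [hP.dyadic hB, eventually_ge_atTop 1,
    ht.eventually (ge_mem_nhds (by linarith : (0 : ℝ) < ε / 2))] with n₀ hD hn0 hsm β hβ hb
  have hn0r : (0 : ℝ) < n₀ := by exact_mod_cast hn0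
  refine ⟨exp (-(2 * n₀ * B)) / 2, by positivity, ?_⟩
  have hbig : ∀ᶠ N : ℕ in atTop, 2 * B * (n₀ : ℝ) / ε ≤ N :=
    tendsto_natCast_atTop_atTop.eventually_ge_atTop _
  filter_upwards [eventually_ge_atTop (2 * n₀), hbig] with N hN1 hN2 t ht'
  have hNr : (0 : ℝ) < N := by
    have : 0 < N := by omega
    exact_mod_cast this
  have ht0 : (0 : ℝ) ≤ t := by positivity
  set m := N / n₀ with hm
  set r := N % n₀ with hr
  have hNe : N = m * n₀ + r := by rw [hm, hr, mul_comm]; exact (Nat.div_add_mod N n₀).symm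
  have hrlt : r < n₀ := Nat.mod_lt _ (by omega)
  have hm1 : 1 ≤ m := by
    rw [hm]; exact (Nat.one_le_div_iff (by omega)).2 (by omega)
  have hmr : (0 : ℝ) < m := by exact_mod_cast hm1
  have hNer : (N : ℝ) = ((m * n₀ : ℕ) : ℝ) + r := by exact_mod_cast hNe
  have hrr : (r : ℝ) ≤ n₀ := by exact_mod_cast hrlt.le
  have hr0 : (0 : ℝ) ≤ r := by positivity
  have hpow : 0 ≤ (m : ℝ) ^ (-(1 / 12 : ℝ)) := rpow_nonneg hmr.le _
  have hβpos : 0 ≤ β - ε := by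
    by_contra hneg
    push Not at hneg
    nlinarith
  have hmain : 1 / 2 ≤ P (m * n₀) t := by
    refine hD β hβ hb m hm1 t ?_
    have h1 : (β - ε) * N ≤ (β - ε / 2) * ((m * n₀ : ℕ) : ℝ) := by
      have h3 : 2 * B * (n₀ : ℝ) ≤ ε * N := by
        rw [div_le_iff₀ hε] at hN2; linarith
      have h4 : ((m * n₀ : ℕ) : ℝ) = N - r := by linarith
      rw [h4]
      nlinarith
    refine (ht'.trans h1).trans (mul_le_mul_of_nonneg_right ?_ (by positivity))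
    have hc0 : 0 ≤ 240 * (n₀ : ℝ) ^ (-(1 / 12 : ℝ)) := by positivity
    nlinarith
  rcases Nat.eq_zero_or_pos r with h0 | h0
  · have hNe' : N = m * n₀ := by omega
    rw [hNe']
    have : exp (-(2 * n₀ * B)) ≤ 1 := exp_le_one_iff.2 (by nlinarith [mul_pos hn0r hB])
    linarith
  · have hI := hP.interp (m * n₀) r t (Nat.one_le_iff_ne_zero.2 (by positivity)) h0
    rw [← hNe] at hI
    have hterm : bw t t (((m * n₀ : ℕ) : ℝ) / (((m * n₀ : ℕ) : ℝ) + r)) *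
        (P (m * n₀) t * P r (t - t)) ≤ P N t := by
      refine le_trans ?_ hI
      refine single_le_sum (f := fun i => bw t i (((m * n₀ : ℕ) : ℝ) / (((m * n₀ : ℕ) : ℝ) + r)) *
        (P (m * n₀) i * P r (t - i))) (fun i _ => ?_) (mem_range.2 (Nat.lt_succ_self t))
      refine mul_nonneg (bw_nonneg (by positivity) ?_) (mul_nonneg (hP.nonneg _ _) (hP.nonneg _ _))
      rw [← hNer, div_le_one hNr]; linarith
    rw [Nat.sub_self, hP.zero, mul_one, ← hNer] at hterm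
    have hbw : bw t t (((m * n₀ : ℕ) : ℝ) / N) = (1 - (r : ℝ) / N) ^ t := by
      unfold bw
      rw [Nat.choose_self, Nat.sub_self, pow_zero, Nat.cast_one, one_mul, mul_one]
      congr 1
      rw [eq_sub_iff_add_eq, ← add_div, ← hNer, div_self hNr.ne']
    rw [hbw] at hterm
    have hx0 : 0 ≤ (r : ℝ) / N := by positivity
    have hx1 : (r : ℝ) / N ≤ 1 / 2 := by
      rw [div_le_iff₀ hNr]
      have : (2 : ℝ) * n₀ ≤ N := by exact_mod_cast hN1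
      linarith
    have he : exp (-(2 * n₀ * B)) ≤ (1 - (r : ℝ) / N) ^ t := by
      refine le_trans ?_ (pow_le_pow_left₀ (exp_pos _).le (exp_le_one_sub hx0 hx1) t)
      rw [← exp_nat_mul]
      refine exp_le_exp.2 ?_
      have h5 : (t : ℝ) * (r / N) ≤ B * n₀ := by
        have h6 : (t : ℝ) ≤ B * N := by nlinarith
        have h7 : (t : ℝ) * (r / N) = t * r / N := by ring
        rw [h7, div_le_iff₀ hNr]
        nlinarith [mul_nonneg ht0 hr0, mul_nonneg hB.le hNr.le]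
      linarith
    nlinarith [hP.nonneg (m * n₀) t, exp_pos (-(2 * n₀ * B))]

/-- frequently bounded below at density `c` implies satisfiable with high probability below `c` -/
theorem Sys.push (hP : Sys P) {c c' δ : ℝ} (hc' : 0 ≤ c') (hcc : c' < c) (hδ : 0 < δ)
    (h : ∃ᶠ n : ℕ in atTop, δ ≤ P n ⌊c * n⌋₊) :
    Tendsto (fun n : ℕ => P n ⌊c' * n⌋₊) atTop (𝓝 1) := by
  set ε : ℝ := (c - c') / 4 with hε
  have hε0 : 0 < ε := by rw [hε]; linarith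
  have hc0 : 0 < c := by linarith
  obtain ⟨C, hC, hW⟩ := hP.window (c + 1) (by linarith)
  have ht : Tendsto (fun n : ℕ => 4 * C / (ε ^ 2 * δ) * (n : ℝ) ^ (-(1 / 3 : ℝ))) atTop
      (𝓝 (4 * C / (ε ^ 2 * δ) * 0)) :=
    (tendsto_neg (by norm_num : (0 : ℝ) < 1 / 3)).const_mul _
  rw [mul_zero] at ht
  -- a uniform estimate
  have key : ∀ (δ' : ℝ), 0 < δ' → ∀ᶠ n : ℕ in atTop, ∀ a b : ℕ, (b : ℝ) ≤ (c + 1) * n →
      δ' ≤ P n b → (a : ℝ) + ε / 2 * n ≤ b →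
      1 - P n a ≤ 4 * C / (ε ^ 2 * δ') * (n : ℝ) ^ (-(1 / 3 : ℝ)) := by
    intro δ' hδ'
    filter_upwards [eventually_ge_atTop 1] with n hn a b hb hPb hab
    have hnr : (0 : ℝ) < n := by exact_mod_cast hn
    have hab' : a ≤ b := by
      have : (a : ℝ) ≤ b := by nlinarith
      exact_mod_cast this
    have h1 := hW n a b hn hab' hb
    have h2 : 0 ≤ 1 - P n a := by linarith [hP.le_one n a]
    have h3 : (ε / 2 * n) ^ 2 ≤ ((b : ℝ) - a) ^ 2 :=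
      pow_le_pow_left₀ (by positivity) (by linarith) 2
    have h4 : (ε / 2 * n) ^ 2 * δ' * (1 - P n a) ≤ C * (n : ℝ) ^ (5 / 3 : ℝ) := by
      refine le_trans (mul_le_mul_of_nonneg_right ?_ h2) h1
      exact mul_le_mul h3 hPb hδ'.le (by positivity)
    have h5 : (n : ℝ) ^ (5 / 3 : ℝ) = (n : ℝ) ^ 2 * (n : ℝ) ^ (-(1 / 3 : ℝ)) := by
      rw [← rpow_natCast, ← rpow_add hnr]; norm_num
    rw [h5] at h4
    have h6 : (n : ℝ) ^ 2 * (ε ^ 2 * δ' / 4 * (1 - P n a)) ≤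
        (n : ℝ) ^ 2 * (C * (n : ℝ) ^ (-(1 / 3 : ℝ))) := by
      calc _ = (ε / 2 * n) ^ 2 * δ' * (1 - P n a) := by ring
        _ ≤ _ := h4
        _ = _ := by ring
    have h7 := le_of_mul_le_mul_left h6 (by positivity)
    have h8 : 0 < ε ^ 2 * δ' / 4 := by positivity
    calc 1 - P n a ≤ (C * (n : ℝ) ^ (-(1 / 3 : ℝ))) / (ε ^ 2 * δ' / 4) := by
          rw [le_div_iff₀ h8]; linarith
      _ = _ := by field_simp
  -- find a good size
  have hsmall := ht.eventually (ge_mem_nhds (by norm_num : (0 : ℝ) < 1 / 2))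
  have hbig : ∀ᶠ n : ℕ in atTop, 2 / ε ≤ (n : ℝ) :=
    tendsto_natCast_atTop_atTop.eventually_ge_atTop _
  obtain ⟨n₀, hn0, ⟨hA, hk, hs, hbg⟩⟩ :=
    (h.and_eventually ((hP.allN (B := c) hc0 ε hε0).and ((key δ hδ).and (hsmall.and hbig)))).exists
  obtain ⟨δ₁, hδ₁, hN⟩ := hA (c - ε) (by linarith) (by
    intro t htt
    have hfl : c * n₀ < (⌊c * n₀⌋₊ : ℝ) + 1 := Nat.lt_floor_add_one _
    have hfl2 : (⌊c * n₀⌋₊ : ℝ) ≤ c * n₀ := Nat.floor_le (by positivity)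
    rw [div_le_iff₀ hε0] at hbg
    have := hk t ⌊c * n₀⌋₊ (by nlinarith) hn0 (by nlinarith)
    linarith)
  have ht2 : Tendsto (fun n : ℕ => 4 * C / (ε ^ 2 * δ₁) * (n : ℝ) ^ (-(1 / 3 : ℝ))) atTop
      (𝓝 (4 * C / (ε ^ 2 * δ₁) * 0)) :=
    (tendsto_neg (by norm_num : (0 : ℝ) < 1 / 3)).const_mul _
  rw [mul_zero] at ht2
  have ht3 : Tendsto (fun n : ℕ => 1 - 4 * C / (ε ^ 2 * δ₁) * (n : ℝ) ^ (-(1 / 3 : ℝ))) atTop
      (𝓝 (1 - 0)) := tendsto_const_nhds.sub ht2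
  rw [sub_zero] at ht3
  refine tendsto_of_tendsto_of_tendsto_of_le_of_le' ht3 tendsto_const_nhds ?_
    (Eventually.of_forall fun n => hP.le_one n _)
  filter_upwards [hN, key δ₁ hδ₁, hbig, eventually_ge_atTop 1] with n h1 h2 h3 h4
  have hnr : (0 : ℝ) < n := by exact_mod_cast h4
  rw [div_le_iff₀ hε0] at h3
  have hce : c - ε - ε = c' + 2 * ε := by rw [hε]; ring
  have hfl : (c - ε - ε) * n < (⌊(c - ε - ε) * n⌋₊ : ℝ) + 1 := Nat.lt_floor_add_one _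
  have hfl2 : (⌊(c - ε - ε) * n⌋₊ : ℝ) ≤ (c - ε - ε) * n := by
    refine Nat.floor_le ?_
    rw [hce]; positivity
  have hfl3 : (⌊c' * n⌋₊ : ℝ) ≤ c' * n := Nat.floor_le (by positivity)
  have := h2 ⌊c' * n⌋₊ ⌊(c - ε - ε) * n⌋₊ (by nlinarith) (h1 _ hfl2) (by
    rw [hce] at hfl ⊢
    nlinarith)
  linarith

/-- **The limiting threshold.** -/
theorem Sys.threshold (hP : Sys P) : ∃ α : ℝ, 0 < α ∧
    (∀ c : ℝ, 0 ≤ c → c < α → Tendsto (fun n : ℕ => P n ⌊c * n⌋₊) atTop (𝓝 1)) ∧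
    (∀ c : ℝ, α < c → Tendsto (fun n : ℕ => P n ⌊c * n⌋₊) atTop (𝓝 0)) := by
  set S : Set ℝ := {c | 0 ≤ c ∧ ∃ δ : ℝ, 0 < δ ∧ ∃ᶠ n : ℕ in atTop, δ ≤ P n ⌊c * n⌋₊} with hS
  obtain ⟨c₁, hc₁, h1⟩ := hP.first
  obtain ⟨c₀, hc₀, h0⟩ := hP.pos
  have hmem : c₀ ∈ S := ⟨hc₀.le, 1 / 2, by norm_num, h0.frequently⟩
  have hbdd : BddAbove S := by
    refine ⟨c₁, fun c hc => ?_⟩
    obtain ⟨hc0, δ, hδ, hfr⟩ := hc
    by_contra hlt
    push Not at hlt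
    have := hP.push hc₁.le hlt hδ hfr
    exact zero_ne_one (tendsto_nhds_unique h1 this)
  refine ⟨sSup S, lt_of_lt_of_le hc₀ (le_csSup hbdd hmem), ?_, ?_⟩
  · intro c hc hlt
    obtain ⟨c', hc'S, hc'⟩ := exists_lt_of_lt_csSup ⟨c₀, hmem⟩ hlt
    obtain ⟨_, δ, hδ, hfr⟩ := hc'S
    exact hP.push hc hc' hδ hfr
  · intro c hlt
    have hc0 : 0 ≤ c := (hc₀.le.trans (le_csSup hbdd hmem)).trans hlt.le
    have hcS : c ∉ S := fun h => absurd (le_csSup hbdd h) (not_le.2 hlt)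
    have hev : ∀ δ : ℝ, 0 < δ → ∀ᶠ n : ℕ in atTop, P n ⌊c * n⌋₊ < δ := by
      intro δ hδ
      by_contra hne
      rw [not_eventually] at hne
      exact hcS ⟨hc0, δ, hδ, hne.mono fun n hn => not_lt.1 hn⟩
    rw [Metric.tendsto_nhds]
    intro δ hδ
    filter_upwards [hev δ hδ] with n hn
    rw [Real.dist_eq, sub_zero, abs_of_nonneg (hP.nonneg _ _)]
    exact hn

end P170.Limit
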